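import Vale.Agent.P154.D5.K0.Main
import Vale.Agent.P154.D5.K1.Main
import Vale.Agent.P154.D5.K2.Main
import Vale.Agent.P154.D5.K3.Main

namespace Vale.Agent.P154.D5

open PolyR Cert

/-- Coefficients of the potentials. -/
noncomputable def cc1 : ℕ → ℝ
  | 0 => (4739 / 5000 : ℝ)
  | 1 => (11153 / 10000 : ℝ)
  | 2 => (1379 / 1000 : ℝ)
  | 3 => (9153 / 5000 : ℝ)
  | 4 => (34877 / 10000 : ℝ)
  | _ => 0

/-- Coefficients of the potentials. -/
noncomputable def cc2 : ℕ → ℝ
  | 0 => (-23823 / 10000 : ℝ)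
  | 1 => (-6041 / 2000 : ℝ)
  | 2 => (-42643 / 10000 : ℝ)
  | 3 => (-4786 / 625 : ℝ)
  | 4 => (-53239 / 2000 : ℝ)
  | _ => 0

/-- Coefficients of the potentials. -/
noncomputable def cc4 : ℕ → ℝ
  | 0 => (13711 / 5000 : ℝ)
  | 1 => (36081 / 10000 : ℝ)
  | 2 => (6773 / 1250 : ℝ)
  | 3 => (2517 / 200 : ℝ)
  | 4 => (684677 / 10000 : ℝ)
  | _ => 0

/-- Coefficients of the potentials. -/
noncomputable def zz : ℕ → ℝ
  | 0 => (979 / 1000 : ℝ)
  | 1 => (93 / 100 : ℝ)
  | 2 => (391 / 500 : ℝ)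
  | 3 => (56 / 125 : ℝ)
  | _ => 0

theorem H : ChainHyp 5 (4473 / 10000 : ℝ) cc1 cc2 cc4 zz (347 / 500000 : ℝ) where
  hd := by norm_num
  hl0 := by norm_num
  hl1 := by norm_num
  hld := by norm_num
  hτ' := by norm_num
  hc01 := by simp only [cc1]; norm_num
  hc04 := by simp only [cc4]; norm_num
  hc0 := by simp only [cc1, cc2, cc4]; norm_num
  hcd1 := by simp only [cc1, show 5 - 1 = 4 from rfl]; norm_num
  hcd4 := by simp only [cc4, show 5 - 1 = 4 from rfl]; norm_num
  hcd := by simp only [cc1, cc2, cc4, show 5 - 1 = 4 from rfl]; norm_num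
  hζ0 := by
    intro k hk
    have hk' : k < 4 := by omega
    interval_cases k <;> simp only [zz] <;> norm_num
  hζ1 := by
    intro k hk
    have hk' : k < 4 := by omega
    interval_cases k <;> simp only [zz] <;> norm_num
  hstep := by
    intro k hk x y hx hy hx1 hy1
    have hk' : k < 4 := by omega
    interval_cases k
    · exact K0.step x y hx hy hx1 hy1
    · exact K1.step x y hx hy hx1 hy1
    · exact K2.step x y hx hy hx1 hy1
    · exact K3.step x y hx hy hx1 hy1
  hT := by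
    intro a b
    have h := Vale.Agent.P154.quad_nonneg (α := (278148987713030027 / 400000000000000000000 : ℝ)) (β := (3354552005835303 / 800000000000000000000000 : ℝ)) (γ := (305638863684869145572883 / 40000000000000000000000000000 : ℝ)) (a := a) (b := b) (by norm_num) (by norm_num)
    simp only [show 5 - 1 = 4 from rfl, cc1, cc2, cc4, Pq]
    linarith

/-- Nonreconstruction for `5` children. -/
theorem nonrecon (lam : ℝ) (h0 : 0 ≤ lam) (hdl : ((5 : ℕ) : ℝ) * lam ^ 2 ≤ 1) :
    Filter.Tendsto (reconError 3 5 lam) Filter.atTop (nhds 0) :=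
  nonrecon_of_hyp H lam h0 hdl

end Vale.Agent.P154.D5
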